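import Vale.Agent.P183.L7.Data

namespace Vale.Agent.P183.L7

/-- number of points -/
def n : ℕ := 43680
/-- fuel for path evaluation -/
def D : ℕ := 17

/-- evaluate the first argument once -/
def force {α : Type} (x : ℕ) (f : ℕ → α) : α :=
  match x with
  | 0 => f 0
  | k + 1 => f (k + 1)

theorem force_eq {α : Type} (x : ℕ) (f : ℕ → α) : force x f = f x := by
  cases x <;> rfl

/-- descend in a tree along the bits of `i` -/
noncomputable def Tr.get (t : Tr) : ℕ → ℕ :=
  Tr.rec (motive := fun _ => ℕ → ℕ) (fun v _ => v)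
    (fun b _ _ gl gr i => Nat.rec (motive := fun _ => ℕ) (gl i) (fun _ _ => gr i) (Nat.land i b)) t

noncomputable def lk16 (T : Tr) (x : ℕ) : ℕ :=
  force x fun x => force (Nat.shiftRight x 6) fun i =>
    Nat.land (Nat.shiftRight (Tr.get T i) (Nat.mul 16 (Nat.land x 63))) 65535
def lks (T x : ℕ) : ℕ := Nat.land (Nat.shiftRight T (Nat.mul 16 x)) 65535

noncomputable def fS (x : ℕ) : ℕ := Nat.mod (lk16 Ts (Nat.mod x n)) n
noncomputable def fT (x : ℕ) : ℕ := Nat.mod (lk16 Tt (Nat.mod x n)) n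
noncomputable def fG (x : ℕ) : ℕ := Nat.mod (lk16 Tg (Nat.mod x n)) n
noncomputable def fG2 (x : ℕ) : ℕ := Nat.mod (lk16 Tg2 (Nat.mod x n)) n

/-- the four basic operations -/
noncomputable def op : ℕ → ℕ → ℕ
  | 0, x => fS x
  | 1, x => fT x
  | 2, x => fG x
  | _, x => fG2 x

/-- `ev k y q`: apply to `q` the canonical word leading from `0` to `y`. -/
noncomputable def ev : ℕ → ℕ → ℕ → ℕ
  | 0, _, q => q
  | _ + 1, 0, q => q
  | k + 1, y + 1, q =>
    match Nat.land (lk16 LC (y + 1)) 3 with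
    | 0 => fS (ev k (lk16 Pp (y + 1)) q)
    | 1 => fT (ev k (lk16 Pp (y + 1)) q)
    | 2 => fG (ev k (lk16 Pp (y + 1)) q)
    | _ => fG2 (ev k (lk16 Pp (y + 1)) q)

noncomputable def hact : ℕ → ℕ → ℕ
  | 0, y => y
  | 1, y => fT y
  | 2, y => fT (fT y)
  | 3, y => fS y
  | 4, y => fT (fS y)
  | _, y => fT (fT (fS y))

noncomputable def nxt (y : ℕ) : ℕ :=
  match Nat.shiftRight (lk16 LC y) 2 with
  | 6 => fS y
  | 7 => fT y
  | c => ev D y (hact c y)

def rootOf : ℕ → ℕ
  | 0 => 0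
  | 1 => 1
  | 2 => 3
  | 3 => 9
  | 4 => 21
  | 5 => 102
  | _ => 111

def allLt (p : ℕ → Bool) : ℕ → Bool
  | 0 => true
  | k + 1 => p k && allLt p k

theorem allLt_iff (p : ℕ → Bool) (k : ℕ) : allLt p k = true ↔ ∀ i, i < k → p i = true := by
  induction k with
  | zero => simp [allLt]
  | succ k ih =>
    simp only [allLt, Bool.and_eq_true, ih]
    constructor
    · rintro ⟨h1, h2⟩ i hi
      rcases Nat.lt_succ_iff_lt_or_eq.mp hi with h | h
      · exact h2 i h
      · exact h ▸ h1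
    · intro h
      exact ⟨h k (Nat.lt_succ_self k), fun i hi => h i (Nat.lt_succ_of_lt hi)⟩

/-- the type (code of a lattice element) of a point -/
noncomputable def typ (y : ℕ) : ℕ := lk16 RT y / 4096

/-- the order of the lattice on codes `0..6` -/
def leqb : ℕ → ℕ → Bool
  | 0, _ => true
  | 1, b => Nat.beq b 1 || Nat.beq b 3 || Nat.beq b 4 || Nat.beq b 6
  | 2, b => Nat.beq b 2 || Nat.beq b 3 || Nat.beq b 6
  | 3, b => Nat.beq b 3 || Nat.beq b 6
  | 4, b => Nat.beq b 4 || Nat.beq b 6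
  | 5, b => Nat.beq b 5 || Nat.beq b 6
  | _, b => Nat.beq b 6

/-- orders of the generators -/
noncomputable def chkOrd (x : ℕ) : Bool :=
  Nat.beq (fS (fS x)) x && Nat.beq (fT (fT (fT x))) x && Nat.beq (fG (fG x)) x &&
    Nat.beq (fG2 (fG2 x)) x

/-- main per point check -/
noncomputable def chkY (y : ℕ) : Bool :=
  force (lk16 RT y) fun b =>
    Nat.beq (ev D y 0) y && Nat.ble (b / 4096) 6 &&
    (Nat.beq (b / 4096) 0 == Nat.beq y 0) && (Nat.beq (b / 4096) 6 == Nat.ble 111 y) &&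
    (if Nat.beq (b % 4096) 0 then Nat.beq y (rootOf (b / 4096))
     else force (lk16 RT (nxt y)) fun a => Nat.blt a b && Nat.beq (a / 4096) (b / 4096))

/-- class representative -/
noncomputable def lab (T : Tr) (x : ℕ) : ℕ := lk16 T (Nat.mod x n)

noncomputable def chkLab (T : Tr) (x : ℕ) : Bool :=
  force (lab T x) fun r =>
    Nat.beq (lab T (fS x)) (lab T (fS r)) && Nat.beq (lab T (fT x)) (lab T (fT r)) &&
    Nat.beq (lab T (fG x)) (lab T (fG r)) && Nat.beq (lab T (fG2 x)) (lab T (fG2 r))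

noncomputable def chkBlk (x : ℕ) : Bool :=
  force (typ x) fun t =>
    (Nat.beq (lab LJ2 x) (lab LJ2 0) == leqb t 2) && (Nat.beq (lab LK x) (lab LK 0) == leqb t 3) &&
    (Nat.beq (lab LM1 x) (lab LM1 0) == leqb t 4) && (Nat.beq (lab LM2 x) (lab LM2 0) == leqb t 5)

noncomputable def chkAll (x : ℕ) : Bool :=
  chkOrd x && chkY x && chkLab LJ2 x && chkLab LK x && chkLab LM1 x && chkLab LM2 x && chkBlk x

/-- size of a slice -/
def sl : ℕ := 455

noncomputable def chkSlice (k : ℕ) : Bool := allLt (fun i => force (sl * k + i) chkAll) sl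

def Ptab : ℕ → ℕ
  | 1 => P1
  | 2 => P2
  | 3 => P3
  | 4 => P4
  | _ => P5

noncomputable def apl (i c p : ℕ) : ℕ :=
  match c with
  | 0 => fS p
  | 1 => fT p
  | _ => ev D (rootOf i) p

noncomputable def chkS (i z : ℕ) : Bool :=
  !(leqb (typ z) i) || Nat.beq z 0 ||
  (force (lks (Ptab i) z) fun e =>
     force (Nat.land (Nat.shiftRight e 7) 127) fun p =>
       leqb (typ p) i && Nat.blt (Nat.land (lks (Ptab i) p) 127) (Nat.land e 127) &&
         Nat.beq (apl i (Nat.shiftRight e 14) p) z)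

noncomputable def op3 : ℕ → ℕ → ℕ
  | 0, x => fS x
  | 1, x => fT x
  | _, x => fG x

noncomputable def actW : List ℕ → ℕ → ℕ
  | [], q => q
  | l :: w, q => actW w (op3 l q)

noncomputable def chkMisc : Bool :=
  Nat.beq (fS 0) 0 && Nat.beq (fT 0) 0 && Nat.beq (fG 0) 111 && Nat.beq (actW Wd 0) (fG2 0) &&
  allLt (fun i => Nat.beq (typ (rootOf i)) i) 7 &&
  Nat.beq (typ (ev D 1 3)) 3 && Nat.beq (typ (ev D 1 102)) 6 && Nat.beq (typ (ev D 3 102)) 6 &&
  Nat.beq (typ (ev D 3 21)) 6 &&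
  allLt (chkS 1) 111 && allLt (chkS 2) 111 && allLt (chkS 3) 111 && allLt (chkS 4) 111 &&
  allLt (chkS 5) 111

set_option profiler true in
theorem chkMisc_ok : chkMisc = true := by decide +kernel

end Vale.Agent.P183.L7
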