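import Mathlib

namespace Vale.Agent.P183

/-- The seven element lattice with least element `bot`, greatest element `top` and five further
elements `j1 j2 k m1 m2` whose only strict comparabilities are
`j1 < k`, `j2 < k`, `j1 < m1`. -/
inductive ExcL7 : Type
  | bot | j1 | j2 | k | m1 | m2 | top
  deriving DecidableEq

namespace ExcL7

/-- The order relation of `ExcL7`. -/
def le' (x y : ExcL7) : Prop :=
  x = y ∨ x = bot ∨ y = top ∨ (x = j1 ∧ (y = k ∨ y = m1)) ∨ (x = j2 ∧ y = k)

instance : DecidableRel le' := fun x y => by unfold le'; infer_instance

instance : PartialOrder ExcL7 where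
  le := le'
  le_refl := fun x => Or.inl rfl
  le_trans := by
    intro a b c
    cases a <;> cases b <;> cases c <;> decide
  le_antisymm := by
    intro a b
    cases a <;> cases b <;> decide

end ExcL7

end Vale.Agent.P183
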