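import Vale.Agent.P183.L7.Check

namespace Vale.Agent.P183.L7

theorem n_pos : 0 < n := by decide

theorem fS_lt (x : ℕ) : fS x < n := Nat.mod_lt _ n_pos
theorem fT_lt (x : ℕ) : fT x < n := Nat.mod_lt _ n_pos
theorem fG_lt (x : ℕ) : fG x < n := Nat.mod_lt _ n_pos
theorem fG2_lt (x : ℕ) : fG2 x < n := Nat.mod_lt _ n_pos

theorem fS_mod (x : ℕ) : fS (x % n) = fS x := by
  show Nat.mod (lk16 Ts (Nat.mod (x % n) n)) n = Nat.mod (lk16 Ts (Nat.mod x n)) n
  rw [show Nat.mod (x % n) n = Nat.mod x n from Nat.mod_mod x n]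
theorem fT_mod (x : ℕ) : fT (x % n) = fT x := by
  show Nat.mod (lk16 Tt (Nat.mod (x % n) n)) n = Nat.mod (lk16 Tt (Nat.mod x n)) n
  rw [show Nat.mod (x % n) n = Nat.mod x n from Nat.mod_mod x n]
theorem fG_mod (x : ℕ) : fG (x % n) = fG x := by
  show Nat.mod (lk16 Tg (Nat.mod (x % n) n)) n = Nat.mod (lk16 Tg (Nat.mod x n)) n
  rw [show Nat.mod (x % n) n = Nat.mod x n from Nat.mod_mod x n]
theorem fG2_mod (x : ℕ) : fG2 (x % n) = fG2 x := by
  show Nat.mod (lk16 Tg2 (Nat.mod (x % n) n)) n = Nat.mod (lk16 Tg2 (Nat.mod x n)) n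
  rw [show Nat.mod (x % n) n = Nat.mod x n from Nat.mod_mod x n]
theorem lab_mod (T : Tr) (x : ℕ) : lab T (x % n) = lab T x := by
  show lk16 T (Nat.mod (x % n) n) = lk16 T (Nat.mod x n)
  rw [show Nat.mod (x % n) n = Nat.mod x n from Nat.mod_mod x n]

theorem op_lt (l x : ℕ) : op l x < n := by
  unfold op
  split
  · exact fS_lt _
  · exact fT_lt _
  · exact fG_lt _
  · exact fG2_lt _

theorem op_mod (l x : ℕ) : op l (x % n) = op l x := by
  unfold op
  split
  · exact fS_mod _
  · exact fT_mod _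
  · exact fG_mod _
  · exact fG2_mod _

/-- equivalence relations on `ℕ` compatible with the four operations -/
structure Cg (θ : ℕ → ℕ → Prop) : Prop where
  refl : ∀ a, θ a a
  symm : ∀ {a b}, θ a b → θ b a
  trans : ∀ {a b c}, θ a b → θ b c → θ a c
  cS : ∀ {a b}, θ a b → θ (fS a) (fS b)
  cT : ∀ {a b}, θ a b → θ (fT a) (fT b)
  cG : ∀ {a b}, θ a b → θ (fG a) (fG b)
  cG2 : ∀ {a b}, θ a b → θ (fG2 a) (fG2 b)

theorem Cg.cop {θ : ℕ → ℕ → Prop} (h : Cg θ) (l : ℕ) {a b : ℕ} (hab : θ a b) :
    θ (op l a) (op l b) := by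
  match l with
  | 0 => exact h.cS hab
  | 1 => exact h.cT hab
  | 2 => exact h.cG hab
  | _ + 3 => exact h.cG2 hab

theorem ev_compat {θ : ℕ → ℕ → Prop} (h : Cg θ) :
    ∀ (k y q q' : ℕ), θ q q' → θ (ev k y q) (ev k y q') := by
  intro k
  induction k with
  | zero => intro y q q' hq; simpa [ev] using hq
  | succ k ih =>
    intro y q q' hq
    cases y with
    | zero => simpa [ev] using hq
    | succ y =>
      simp only [ev]
      split
      · exact h.cS (ih _ _ _ hq)
      · exact h.cT (ih _ _ _ hq)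
      · exact h.cG (ih _ _ _ hq)
      · exact h.cG2 (ih _ _ _ hq)

theorem ev_lt : ∀ (k y q : ℕ), q < n → ev k y q < n := by
  intro k
  induction k with
  | zero => intro y q hq; simpa [ev] using hq
  | succ k ih =>
    intro y q hq
    cases y with
    | zero => simpa [ev] using hq
    | succ y =>
      simp only [ev]
      split
      · exact fS_lt _
      · exact fT_lt _
      · exact fG_lt _
      · exact fG2_lt _

/-- points reachable from `0` -/
inductive Reach : ℕ → Prop
  | zero : Reach 0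
  | step (l x : ℕ) : Reach x → Reach (op l x)

theorem Reach.lt {x : ℕ} (h : Reach x) : x < n := by
  cases h with
  | zero => exact n_pos
  | step l x _ => exact op_lt l x

theorem reach_ev : ∀ (k y q : ℕ), Reach q → Reach (ev k y q) := by
  intro k
  induction k with
  | zero => intro y q hq; simpa [ev] using hq
  | succ k ih =>
    intro y q hq
    cases y with
    | zero => simpa [ev] using hq
    | succ y =>
      simp only [ev]
      split
      · exact Reach.step 0 _ (ih _ _ hq)
      · exact Reach.step 1 _ (ih _ _ hq)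
      · exact Reach.step 2 _ (ih _ _ hq)
      · exact Reach.step 3 _ (ih _ _ hq)

end Vale.Agent.P183.L7
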