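import Vale.Agent.P183.L7.Sound1
import Vale.Agent.P183.L7.C.S00
import Vale.Agent.P183.L7.C.S01
import Vale.Agent.P183.L7.C.S02
import Vale.Agent.P183.L7.C.S03
import Vale.Agent.P183.L7.C.S04
import Vale.Agent.P183.L7.C.S05
import Vale.Agent.P183.L7.C.S06
import Vale.Agent.P183.L7.C.S07
import Vale.Agent.P183.L7.C.S08
import Vale.Agent.P183.L7.C.S09
import Vale.Agent.P183.L7.C.S10
import Vale.Agent.P183.L7.C.S11
import Vale.Agent.P183.L7.C.S12
import Vale.Agent.P183.L7.C.S13
import Vale.Agent.P183.L7.C.S14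
import Vale.Agent.P183.L7.C.S15
import Vale.Agent.P183.L7.C.S16
import Vale.Agent.P183.L7.C.S17
import Vale.Agent.P183.L7.C.S18
import Vale.Agent.P183.L7.C.S19
import Vale.Agent.P183.L7.C.S20
import Vale.Agent.P183.L7.C.S21
import Vale.Agent.P183.L7.C.S22
import Vale.Agent.P183.L7.C.S23

namespace Vale.Agent.P183.L7

theorem chkAll_all (x : ℕ) (hx : x < n) : chkAll x = true := by
  have key : ∀ k, chkSlice k = true → ∀ i, i < sl → chkAll (sl * k + i) = true := by
    intro k hk i hi
    have := (allLt_iff _ _).mp hk i hi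
    simpa [force_eq] using this
  have hx' : sl * (x / sl) + x % sl = x := Nat.div_add_mod x sl
  have hk : x / sl < 96 := by
    apply Nat.div_lt_of_lt_mul
    simpa [sl, n] using hx
  have hi : x % sl < sl := Nat.mod_lt _ (by decide)
  rw [← hx']
  generalize x / sl = k at hk
  generalize x % sl = i at hi
  interval_cases k
  · exact key 0 slice00 i hi
  · exact key 1 slice01 i hi
  · exact key 2 slice02 i hi
  · exact key 3 slice03 i hi
  · exact key 4 slice04 i hi
  · exact key 5 slice05 i hi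
  · exact key 6 slice06 i hi
  · exact key 7 slice07 i hi
  · exact key 8 slice08 i hi
  · exact key 9 slice09 i hi
  · exact key 10 slice10 i hi
  · exact key 11 slice11 i hi
  · exact key 12 slice12 i hi
  · exact key 13 slice13 i hi
  · exact key 14 slice14 i hi
  · exact key 15 slice15 i hi
  · exact key 16 slice16 i hi
  · exact key 17 slice17 i hi
  · exact key 18 slice18 i hi
  · exact key 19 slice19 i hi
  · exact key 20 slice20 i hi
  · exact key 21 slice21 i hi
  · exact key 22 slice22 i hi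
  · exact key 23 slice23 i hi
  · exact key 24 slice24 i hi
  · exact key 25 slice25 i hi
  · exact key 26 slice26 i hi
  · exact key 27 slice27 i hi
  · exact key 28 slice28 i hi
  · exact key 29 slice29 i hi
  · exact key 30 slice30 i hi
  · exact key 31 slice31 i hi
  · exact key 32 slice32 i hi
  · exact key 33 slice33 i hi
  · exact key 34 slice34 i hi
  · exact key 35 slice35 i hi
  · exact key 36 slice36 i hi
  · exact key 37 slice37 i hi
  · exact key 38 slice38 i hi
  · exact key 39 slice39 i hi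
  · exact key 40 slice40 i hi
  · exact key 41 slice41 i hi
  · exact key 42 slice42 i hi
  · exact key 43 slice43 i hi
  · exact key 44 slice44 i hi
  · exact key 45 slice45 i hi
  · exact key 46 slice46 i hi
  · exact key 47 slice47 i hi
  · exact key 48 slice48 i hi
  · exact key 49 slice49 i hi
  · exact key 50 slice50 i hi
  · exact key 51 slice51 i hi
  · exact key 52 slice52 i hi
  · exact key 53 slice53 i hi
  · exact key 54 slice54 i hi
  · exact key 55 slice55 i hi
  · exact key 56 slice56 i hi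
  · exact key 57 slice57 i hi
  · exact key 58 slice58 i hi
  · exact key 59 slice59 i hi
  · exact key 60 slice60 i hi
  · exact key 61 slice61 i hi
  · exact key 62 slice62 i hi
  · exact key 63 slice63 i hi
  · exact key 64 slice64 i hi
  · exact key 65 slice65 i hi
  · exact key 66 slice66 i hi
  · exact key 67 slice67 i hi
  · exact key 68 slice68 i hi
  · exact key 69 slice69 i hi
  · exact key 70 slice70 i hi
  · exact key 71 slice71 i hi
  · exact key 72 slice72 i hi
  · exact key 73 slice73 i hi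
  · exact key 74 slice74 i hi
  · exact key 75 slice75 i hi
  · exact key 76 slice76 i hi
  · exact key 77 slice77 i hi
  · exact key 78 slice78 i hi
  · exact key 79 slice79 i hi
  · exact key 80 slice80 i hi
  · exact key 81 slice81 i hi
  · exact key 82 slice82 i hi
  · exact key 83 slice83 i hi
  · exact key 84 slice84 i hi
  · exact key 85 slice85 i hi
  · exact key 86 slice86 i hi
  · exact key 87 slice87 i hi
  · exact key 88 slice88 i hi
  · exact key 89 slice89 i hi
  · exact key 90 slice90 i hi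
  · exact key 91 slice91 i hi
  · exact key 92 slice92 i hi
  · exact key 93 slice93 i hi
  · exact key 94 slice94 i hi
  · exact key 95 slice95 i hi

theorem beq_iff (a b : ℕ) : Nat.beq a b = true ↔ a = b :=
  ⟨Nat.eq_of_beq_eq_true, fun h => h ▸ Nat.beq_refl a⟩

theorem blt_iff (a b : ℕ) : Nat.blt a b = true ↔ a < b := by
  unfold Nat.blt
  rw [Nat.ble_eq]
  exact Iff.rfl

theorem bb {a b : Bool} (h : (a == b) = true) : (a = true ↔ b = true) := by
  have := beq_iff_eq.mp h
  rw [this]

theorem parts (x : ℕ) (hx : x < n) :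
    chkOrd x = true ∧ chkY x = true ∧ chkLab LJ2 x = true ∧ chkLab LK x = true ∧
      chkLab LM1 x = true ∧ chkLab LM2 x = true ∧ chkBlk x = true := by
  have := chkAll_all x hx
  simp only [chkAll, Bool.and_eq_true] at this
  tauto

theorem ords (x : ℕ) (hx : x < n) :
    fS (fS x) = x ∧ fT (fT (fT x)) = x ∧ fG (fG x) = x ∧ fG2 (fG2 x) = x := by
  have := (parts x hx).1
  simp only [chkOrd, Bool.and_eq_true, beq_iff] at this
  tauto

theorem factY (y : ℕ) (hy : y < n) :
    ev D y 0 = y ∧ typ y ≤ 6 ∧ (typ y = 0 ↔ y = 0) ∧ (typ y = 6 ↔ 111 ≤ y) ∧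
    (lk16 RT y % 4096 = 0 → y = rootOf (typ y)) ∧
    (lk16 RT y % 4096 ≠ 0 → lk16 RT (nxt y) < lk16 RT y ∧ typ (nxt y) = typ y) := by
  have := (parts y hy).2.1
  simp only [chkY, force_eq, Bool.and_eq_true] at this
  obtain ⟨⟨⟨⟨h1, h2⟩, h3⟩, h4⟩, h5⟩ := this
  refine ⟨(beq_iff _ _).mp h1, (Nat.ble_eq ▸ h2 : _ ≤ _), ?_, ?_, ?_, ?_⟩
  · have := bb h3
    rw [beq_iff, beq_iff] at this
    exact this
  · have := bb h4
    rw [beq_iff, Nat.ble_eq] at this
    exact this
  · intro h0
    have hb : Nat.beq (lk16 RT y % 4096) 0 = true := (beq_iff _ _).mpr h0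
    rw [if_pos hb] at h5
    exact (beq_iff _ _).mp h5
  · intro h0
    have hb : ¬ (Nat.beq (lk16 RT y % 4096) 0 = true) := fun h => h0 ((beq_iff _ _).mp h)
    rw [if_neg hb] at h5
    simp only [Bool.and_eq_true, blt_iff, beq_iff] at h5
    exact h5

theorem misc :
    fS 0 = 0 ∧ fT 0 = 0 ∧ fG 0 = 111 ∧ actW Wd 0 = fG2 0 ∧
    (∀ i, i < 7 → typ (rootOf i) = i) ∧
    typ (ev D 1 3) = 3 ∧ typ (ev D 1 102) = 6 ∧ typ (ev D 3 102) = 6 ∧ typ (ev D 3 21) = 6 ∧
    (∀ i, 1 ≤ i → i ≤ 5 → ∀ z, z < 111 → chkS i z = true) := by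
  have := chkMisc_ok
  simp only [chkMisc, Bool.and_eq_true, beq_iff, allLt_iff] at this
  obtain ⟨⟨⟨⟨⟨⟨⟨⟨⟨⟨⟨⟨⟨a1, a2⟩, a3⟩, a4⟩, a5⟩, a6⟩, a7⟩, a8⟩, a9⟩, b1⟩, b2⟩, b3⟩, b4⟩, b5⟩ := this
  refine ⟨a1, a2, a3, a4, a5, a6, a7, a8, a9, ?_⟩
  intro i h1 h5
  interval_cases i
  · exact b1
  · exact b2
  · exact b3
  · exact b4
  · exact b5

end Vale.Agent.P183.L7
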