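import Vale.Agent.P183.L7.Sound2

namespace Vale.Agent.P183.L7

variable {θ : ℕ → ℕ → Prop}

theorem clS (h : Cg θ) {q : ℕ} (hq : θ 0 q) : θ 0 (fS q) := by
  have := h.cS hq
  rwa [misc.1] at this

theorem clT (h : Cg θ) {q : ℕ} (hq : θ 0 q) : θ 0 (fT q) := by
  have := h.cT hq
  rwa [misc.2.1] at this

theorem ruleR (h : Cg θ) {y q : ℕ} (hy : y < n) (hBy : θ 0 y) (hq : θ 0 q) :
    θ 0 (ev D y q) := by
  have h1 := ev_compat h D y 0 q hq
  rw [(factY y hy).1] at h1
  exact h.trans hBy h1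

theorem hact_mem (h : Cg θ) (c : ℕ) {y : ℕ} (hy : θ 0 y) : θ 0 (hact c y) := by
  unfold hact
  split
  · exact hy
  · exact clT h hy
  · exact clT h (clT h hy)
  · exact clS h hy
  · exact clT h (clS h hy)
  · exact clT h (clT h (clS h hy))

theorem hact_lt (c : ℕ) {y : ℕ} (hy : y < n) : hact c y < n := by
  unfold hact
  split
  · exact hy
  all_goals first | exact fT_lt _ | exact fS_lt _

theorem nxt_mem (h : Cg θ) {y : ℕ} (hy : y < n) (hB : θ 0 y) : θ 0 (nxt y) := by
  unfold nxt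
  split
  · exact clS h hB
  · exact clT h hB
  · exact ruleR h hy hB (hact_mem h _ hB)

theorem nxt_lt {y : ℕ} (hy : y < n) : nxt y < n := by
  unfold nxt
  split
  · exact fS_lt _
  · exact fT_lt _
  · exact ev_lt _ _ _ (hact_lt _ hy)

theorem climb (h : Cg θ) :
    ∀ r y, y < n → lk16 RT y = r → θ 0 y → θ 0 (rootOf (typ y)) := by
  intro r
  induction r using Nat.strong_induction_on with
  | _ r ih =>
    intro y hy hr hB
    obtain ⟨-, -, -, -, f5, f6⟩ := factY y hy
    by_cases h0 : lk16 RT y % 4096 = 0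
    · have e := f5 h0
      exact e ▸ hB
    · obtain ⟨hlt, hty⟩ := f6 h0
      have := ih (lk16 RT (nxt y)) (hr ▸ hlt) (nxt y) (nxt_lt hy) rfl (nxt_mem h hy hB)
      rwa [hty] at this

theorem actW_mem (h : Cg θ) (hG : ∀ {q : ℕ}, θ 0 q → θ 0 (fG q)) :
    ∀ (w : List ℕ) (q : ℕ), θ 0 q → θ 0 (actW w q) := by
  intro w
  induction w with
  | nil => intro q hq; simpa [actW] using hq
  | cons l w ih =>
    intro q hq
    simp only [actW]
    apply ih
    unfold op3
    split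
    · exact clS h hq
    · exact clT h hq
    · exact hG hq

theorem fill6 (h : Cg θ) (hB : θ 0 111) : ∀ z, Reach z → θ 0 z := by
  have hG0 : θ 0 (fG 0) := by rw [misc.2.2.1]; exact hB
  have hG : ∀ {q : ℕ}, θ 0 q → θ 0 (fG q) := fun hq => h.trans hG0 (h.cG hq)
  have hG20 : θ 0 (fG2 0) := by
    rw [← misc.2.2.2.1]; exact actW_mem h hG Wd 0 (h.refl 0)
  have hG2 : ∀ {q : ℕ}, θ 0 q → θ 0 (fG2 q) := fun hq => h.trans hG20 (h.cG2 hq)
  intro z hz
  induction hz with
  | zero => exact h.refl 0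
  | step l x _ ih =>
    unfold op
    split
    · exact clS h ih
    · exact clT h ih
    · exact hG ih
    · exact hG2 ih

theorem reach_all (y : ℕ) (hy : y < n) : Reach y := by
  have := reach_ev D y 0 Reach.zero
  rwa [(factY y hy).1] at this

theorem leqb6 {i : ℕ} (h1 : i ≤ 5) : leqb 6 i = false := by
  interval_cases i <;> rfl

theorem root_lt (i : ℕ) : rootOf i < n := by
  unfold rootOf
  split <;> decide

theorem lt111 {i z : ℕ} (h5 : i ≤ 5) (hz : z < n) (hle : leqb (typ z) i = true) : z < 111 := by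
  by_contra hcon
  have := ((factY z hz).2.2.2.1).mpr (not_lt.mp hcon)
  rw [this, leqb6 h5] at hle
  exact absurd hle (by simp)

theorem fillS (h : Cg θ) (i : ℕ) (h1 : 1 ≤ i) (h5 : i ≤ 5) (hB : θ 0 (rootOf i)) :
    ∀ r z, z < 111 → Nat.land (lks (Ptab i) z) 127 = r → leqb (typ z) i = true → θ 0 z := by
  intro r
  induction r using Nat.strong_induction_on with
  | _ r ih =>
    intro z hz hr hle
    have hc := misc.2.2.2.2.2.2.2.2.2 i h1 h5 z hz
    simp only [chkS, force_eq, Bool.or_eq_true, Bool.and_eq_true, Bool.not_eq_true', beq_iff,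
      blt_iff] at hc
    rcases hc with (hc | hc) | hc
    · rw [hle] at hc; exact absurd hc (by simp)
    · rw [hc]; exact h.refl 0
    · obtain ⟨⟨hp, hrk⟩, hap⟩ := hc
      have hpn : Nat.land (Nat.shiftRight (lks (Ptab i) z) 7) 127 < n :=
        lt_of_le_of_lt (Nat.and_le_right) (by decide)
      have hp111 := lt111 h5 hpn hp
      have hBp := ih _ (hr ▸ hrk) _ hp111 rfl hp
      rw [← hap]
      unfold apl
      split
      · exact clS h hBp
      · exact clT h hBp
      · exact ruleR h (root_lt i) hB hBp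

/-- some point of type `i` is related to `0` -/
def Has (θ : ℕ → ℕ → Prop) (i : ℕ) : Prop := ∃ y, y < n ∧ typ y = i ∧ θ 0 y

theorem has_root (h : Cg θ) {i : ℕ} (hi : Has θ i) : θ 0 (rootOf i) := by
  obtain ⟨y, hy, ht, hB⟩ := hi
  have := climb h _ y hy rfl hB
  rwa [ht] at this

theorem has_full (h : Cg θ) {i : ℕ} (h1 : 1 ≤ i) (h6 : i ≤ 6) (hi : Has θ i) :
    ∀ z, z < n → leqb (typ z) i = true → θ 0 z := by
  intro z hz hle
  have hr := has_root h hi
  rcases Nat.lt_or_ge i 6 with h5 | h5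
  · have h5' : i ≤ 5 := by omega
    exact fillS h i h1 h5' hr _ z (lt111 h5' hz hle) rfl hle
  · have : i = 6 := by omega
    subst this
    exact fill6 h hr z (reach_all z hz)

theorem has_down (h : Cg θ) {i j : ℕ} (h1 : 1 ≤ i) (h6 : i ≤ 6) (hj : j < 7)
    (hle : leqb j i = true) (hi : Has θ i) : Has θ j := by
  have ht := misc.2.2.2.2.1 j hj
  exact ⟨rootOf j, root_lt j, ht, has_full h h1 h6 hi _ (root_lt j) (by rw [ht]; exact hle)⟩

theorem pick (Hs : ℕ → Prop) (d31 : Hs 3 → Hs 1) (d32 : Hs 3 → Hs 2) (d41 : Hs 4 → Hs 1)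
    (j12 : Hs 1 → Hs 2 → Hs 3) (j15 : Hs 1 → Hs 5 → Hs 6) (j25 : Hs 2 → Hs 5 → Hs 6)
    (j24 : Hs 2 → Hs 4 → Hs 6) :
    ∃ m, m ≤ 6 ∧ (m = 0 ∨ Hs m) ∧ ∀ i, 1 ≤ i → i ≤ 6 → Hs i → leqb i m = true := by
  classical
  by_cases h6 : Hs 6
  · exact ⟨6, le_refl _, Or.inr h6, fun i a b _ => by interval_cases i <;> rfl⟩
  by_cases h5 : Hs 5
  · refine ⟨5, by norm_num, Or.inr h5, fun i a b hi => ?_⟩
    interval_cases i <;> first | rfl | (exfalso; tauto)
  by_cases h4 : Hs 4
  · refine ⟨4, by norm_num, Or.inr h4, fun i a b hi => ?_⟩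
    interval_cases i <;> first | rfl | (exfalso; tauto)
  by_cases h3 : Hs 3
  · refine ⟨3, by norm_num, Or.inr h3, fun i a b hi => ?_⟩
    interval_cases i <;> first | rfl | (exfalso; tauto)
  by_cases h1 : Hs 1
  · refine ⟨1, by norm_num, Or.inr h1, fun i a b hi => ?_⟩
    interval_cases i <;> first | rfl | (exfalso; tauto)
  by_cases h2 : Hs 2
  · refine ⟨2, by norm_num, Or.inr h2, fun i a b hi => ?_⟩
    interval_cases i <;> first | rfl | (exfalso; tauto)
  · refine ⟨0, by norm_num, Or.inl rfl, fun i a b hi => ?_⟩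
    interval_cases i <;> first | rfl | (exfalso; tauto)

theorem leqb_zero {t : ℕ} (ht : t ≤ 6) (h : leqb t 0 = true) : t = 0 := by
  interval_cases t <;> first | rfl | exact absurd h (by decide)

theorem one_lt : (1 : ℕ) < n := by decide
theorem three_lt : (3 : ℕ) < n := by decide

theorem classify (h : Cg θ) :
    ∃ m, m ≤ 6 ∧ ∀ z, z < n → (θ 0 z ↔ leqb (typ z) m = true) := by
  obtain ⟨m, hm, hor, hall⟩ := pick (Has θ)
    (has_down h (by norm_num) (by norm_num) (by norm_num) rfl)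
    (has_down h (by norm_num) (by norm_num) (by norm_num) rfl)
    (has_down h (by norm_num) (by norm_num) (by norm_num) rfl)
    (fun a b => ⟨ev D 1 3, ev_lt _ _ _ three_lt, misc.2.2.2.2.2.1,
      ruleR h one_lt (has_root h a) (has_root h b)⟩)
    (fun a b => ⟨ev D 1 102, ev_lt _ _ _ (by decide), misc.2.2.2.2.2.2.1,
      ruleR h one_lt (has_root h a) (has_root h b)⟩)
    (fun a b => ⟨ev D 3 102, ev_lt _ _ _ (by decide), misc.2.2.2.2.2.2.2.1,
      ruleR h three_lt (has_root h a) (has_root h b)⟩)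
    (fun a b => ⟨ev D 3 21, ev_lt _ _ _ (by decide), misc.2.2.2.2.2.2.2.2.1,
      ruleR h three_lt (has_root h a) (has_root h b)⟩)
  refine ⟨m, hm, fun z hz => ⟨fun hB => ?_, fun hle => ?_⟩⟩
  · obtain ⟨-, f2, f3, -⟩ := factY z hz
    by_cases h0 : typ z = 0
    · rw [h0]; rfl
    · exact hall (typ z) (Nat.pos_of_ne_zero h0) f2 ⟨z, hz, rfl, hB⟩
  · obtain ⟨-, f2, f3, -⟩ := factY z hz
    by_cases hm0 : m = 0
    · subst hm0
      have := f3.mp (leqb_zero f2 hle)
      rw [this]; exact h.refl 0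
    · rcases hor with h0 | hH
      · exact absurd h0 hm0
      · exact has_full h (Nat.pos_of_ne_zero hm0) hm hH z hz hle

theorem cancel (h : Cg θ) (l : ℕ) {a b : ℕ} (ha : a < n) (hb : b < n)
    (H : θ (op l a) (op l b)) : θ a b := by
  obtain ⟨a1, a2, a3, a4⟩ := ords a ha
  obtain ⟨b1, b2, b3, b4⟩ := ords b hb
  match l, H with
  | 0, H =>
    have := h.cS (show θ (fS a) (fS b) from H)
    rwa [a1, b1] at this
  | 1, H =>
    have := h.cT (h.cT (show θ (fT a) (fT b) from H))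
    rwa [a2, b2] at this
  | 2, H =>
    have := h.cG (show θ (fG a) (fG b) from H)
    rwa [a3, b3] at this
  | _ + 3, H =>
    have := h.cG2 (show θ (fG2 a) (fG2 b) from H)
    rwa [a4, b4] at this

theorem preimage (l v : ℕ) (hv : v < n) : ∃ v', v' < n ∧ op l v' = v := by
  obtain ⟨a1, a2, a3, a4⟩ := ords v hv
  match l with
  | 0 => exact ⟨fS v, fS_lt _, a1⟩
  | 1 => exact ⟨fT (fT v), fT_lt _, a2⟩
  | 2 => exact ⟨fG v, fG_lt _, a3⟩
  | _ + 3 => exact ⟨fG2 v, fG2_lt _, a4⟩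

theorem mono {θ θ' : ℕ → ℕ → Prop} (h : Cg θ) (h' : Cg θ')
    (hb : ∀ z, z < n → θ 0 z → θ' 0 z) :
    ∀ u, Reach u → ∀ v, v < n → θ u v → θ' u v := by
  intro u hu
  induction hu with
  | zero => exact hb
  | step l x hx ih =>
    intro v hv huv
    obtain ⟨v', hv', rfl⟩ := preimage l v hv
    exact h'.cop l (ih v' hv' (cancel h l hx.lt hv' huv))

/-- the seven relations -/
noncomputable def Erel : ℕ → ℕ → ℕ → Prop
  | 0, a, b => a % n = b % n
  | 1, a, b => lab LK a = lab LK b ∧ lab LM1 a = lab LM1 b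
  | 2, a, b => lab LJ2 a = lab LJ2 b
  | 3, a, b => lab LK a = lab LK b
  | 4, a, b => lab LM1 a = lab LM1 b
  | 5, a, b => lab LM2 a = lab LM2 b
  | _, _, _ => True

theorem labCg (T : Tr) (hT : ∀ x, x < n → chkLab T x = true) :
    Cg (fun a b => lab T a = lab T b) := by
  have key : ∀ a, lab T (fS a) = lab T (fS (lab T a)) ∧ lab T (fT a) = lab T (fT (lab T a)) ∧
      lab T (fG a) = lab T (fG (lab T a)) ∧ lab T (fG2 a) = lab T (fG2 (lab T a)) := by
    intro a
    have := hT (a % n) (Nat.mod_lt _ n_pos)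
    simp only [chkLab, force_eq, Bool.and_eq_true, beq_iff, fS_mod, fT_mod, fG_mod, fG2_mod,
      lab_mod] at this
    tauto
  refine ⟨fun _ => rfl, fun h => Eq.symm h, fun h1 h2 => Eq.trans h1 h2, ?_, ?_, ?_, ?_⟩
  · intro a b hab
    have hab' : lab T a = lab T b := hab
    show lab T (fS a) = lab T (fS b)
    rw [(key a).1, (key b).1, hab']
  · intro a b hab
    have hab' : lab T a = lab T b := hab
    show lab T (fT a) = lab T (fT b)
    rw [(key a).2.1, (key b).2.1, hab']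
  · intro a b hab
    have hab' : lab T a = lab T b := hab
    show lab T (fG a) = lab T (fG b)
    rw [(key a).2.2.1, (key b).2.2.1, hab']
  · intro a b hab
    have hab' : lab T a = lab T b := hab
    show lab T (fG2 a) = lab T (fG2 b)
    rw [(key a).2.2.2, (key b).2.2.2, hab']

theorem Cg.inf {θ θ' : ℕ → ℕ → Prop} (h : Cg θ) (h' : Cg θ') : Cg (fun a b => θ a b ∧ θ' a b) :=
  ⟨fun a => ⟨h.refl a, h'.refl a⟩, fun x => ⟨h.symm x.1, h'.symm x.2⟩,
    fun x y => ⟨h.trans x.1 y.1, h'.trans x.2 y.2⟩, fun x => ⟨h.cS x.1, h'.cS x.2⟩,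
    fun x => ⟨h.cT x.1, h'.cT x.2⟩, fun x => ⟨h.cG x.1, h'.cG x.2⟩,
    fun x => ⟨h.cG2 x.1, h'.cG2 x.2⟩⟩

theorem ErelCg (m : ℕ) : Cg (Erel m) := by
  match m with
  | 0 =>
    refine ⟨fun _ => rfl, fun h => Eq.symm h, fun h1 h2 => Eq.trans h1 h2, ?_, ?_, ?_, ?_⟩
    · intro a b hab
      have hab' : a % n = b % n := hab
      show fS a % n = fS b % n
      rw [← fS_mod a, hab', fS_mod]
    · intro a b hab
      have hab' : a % n = b % n := hab
      show fT a % n = fT b % n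
      rw [← fT_mod a, hab', fT_mod]
    · intro a b hab
      have hab' : a % n = b % n := hab
      show fG a % n = fG b % n
      rw [← fG_mod a, hab', fG_mod]
    · intro a b hab
      have hab' : a % n = b % n := hab
      show fG2 a % n = fG2 b % n
      rw [← fG2_mod a, hab', fG2_mod]
  | 1 =>
    exact Cg.inf (labCg LK fun x hx => (parts x hx).2.2.2.1)
      (labCg LM1 fun x hx => (parts x hx).2.2.2.2.1)
  | 2 => exact labCg LJ2 fun x hx => (parts x hx).2.2.1
  | 3 => exact labCg LK fun x hx => (parts x hx).2.2.2.1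
  | 4 => exact labCg LM1 fun x hx => (parts x hx).2.2.2.2.1
  | 5 => exact labCg LM2 fun x hx => (parts x hx).2.2.2.2.2.1
  | _ + 6 =>
    exact ⟨fun _ => trivial, fun _ => trivial, fun _ _ => trivial, fun _ => trivial,
      fun _ => trivial, fun _ => trivial, fun _ => trivial⟩

theorem Eblk (m : ℕ) (hm : m ≤ 6) (z : ℕ) (hz : z < n) :
    Erel m 0 z ↔ leqb (typ z) m = true := by
  obtain ⟨-, f2, f3, -⟩ := factY z hz
  have hb := (parts z hz).2.2.2.2.2.2
  simp only [chkBlk, force_eq, Bool.and_eq_true] at hb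
  obtain ⟨⟨⟨b2, b3⟩, b4⟩, b5⟩ := hb
  have c2 := bb b2
  have c3 := bb b3
  have c4 := bb b4
  have c5 := bb b5
  rw [beq_iff] at c2 c3 c4 c5
  have e2 : lab LJ2 0 = lab LJ2 z ↔ leqb (typ z) 2 = true := ⟨fun h => c2.mp h.symm, fun h => (c2.mpr h).symm⟩
  have e3 : lab LK 0 = lab LK z ↔ leqb (typ z) 3 = true := ⟨fun h => c3.mp h.symm, fun h => (c3.mpr h).symm⟩
  have e4 : lab LM1 0 = lab LM1 z ↔ leqb (typ z) 4 = true := ⟨fun h => c4.mp h.symm, fun h => (c4.mpr h).symm⟩
  have e5 : lab LM2 0 = lab LM2 z ↔ leqb (typ z) 5 = true := ⟨fun h => c5.mp h.symm, fun h => (c5.mpr h).symm⟩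
  interval_cases m
  · show 0 % n = z % n ↔ _
    rw [Nat.mod_eq_of_lt hz, Nat.zero_mod]
    constructor
    · intro h0
      rw [f3.mpr h0.symm]; rfl
    · intro hle
      exact (f3.mp (leqb_zero f2 hle)).symm
  · show (lab LK 0 = lab LK z ∧ lab LM1 0 = lab LM1 z) ↔ _
    rw [e3, e4]
    clear e2 e3 e4 e5 c2 c3 c4 c5 b2 b3 b4 b5 f3
    generalize typ z = t at f2
    interval_cases t <;> decide
  · exact e2
  · exact e3
  · exact e4
  · exact e5
  · show True ↔ _
    clear e2 e3 e4 e5 c2 c3 c4 c5 b2 b3 b4 b5 f3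
    generalize typ z = t at f2
    interval_cases t <;> decide

end Vale.Agent.P183.L7
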