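import Vale.Agent.P183.L7.Sound3
import Vale.Agent.P183.L7.Lattice
import Vale.Agent.P183.Defs

namespace Vale.Agent.P183.L7

open Vale.Agent.P183

def mk (a : ℕ) : Fin n := ⟨a % n, Nat.mod_lt _ n_pos⟩

theorem mk_val (x : Fin n) : mk x.val = x := Fin.ext (Nat.mod_eq_of_lt x.isLt)

/-- the unary algebra on `Fin n` with the four basic operations -/
noncomputable def alg : FinAlg where
  carrier := Fin n
  nonempty := ⟨mk 0⟩
  finite := inferInstance
  ops := Fin 4
  finite_ops := inferInstance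
  arity := fun _ => 1
  op := fun o v => mk (op o.val (v 0).val)

theorem toCg (r : Setoid (Fin n)) (hr : alg.IsCong r) : Cg (fun a b => r (mk a) (mk b)) := by
  have key : ∀ (l : Fin 4) (a b : ℕ), r (mk a) (mk b) →
      r (mk (op l.val a)) (mk (op l.val b)) := by
    intro l a b hab
    have := hr l (fun _ => mk a) (fun _ => mk b) (fun _ => hab)
    have e1 : alg.op l (fun _ => mk a) = mk (op l.val a) := by
      show mk (op l.val (a % n)) = mk (op l.val a)
      rw [op_mod]
    have e2 : alg.op l (fun _ => mk b) = mk (op l.val b) := by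
      show mk (op l.val (b % n)) = mk (op l.val b)
      rw [op_mod]
    rwa [e1, e2] at this
  exact ⟨fun a => r.refl _, fun h => r.symm h, fun h1 h2 => r.trans h1 h2,
    fun h => key 0 _ _ h, fun h => key 1 _ _ h, fun h => key 2 _ _ h, fun h => key 3 _ _ h⟩

def toSetoid (E : ℕ → ℕ → Prop) (h : Cg E) : Setoid (Fin n) where
  r := fun x y => E x.val y.val
  iseqv := ⟨fun _ => h.refl _, fun hxy => h.symm hxy, fun h1 h2 => h.trans h1 h2⟩

theorem toSetoid_cong (E : ℕ → ℕ → Prop) (h : Cg E) : alg.IsCong (toSetoid E h) := by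
  intro o x y hxy
  have h0 : E (x (0 : Fin 1)).val (y (0 : Fin 1)).val := hxy (0 : Fin 1)
  show E (mk (op o.val (x (0 : Fin 1)).val)).val (mk (op o.val (y (0 : Fin 1)).val)).val
  have e : ∀ a, (mk (op o.val a)).val = op o.val a := fun a => Nat.mod_eq_of_lt (op_lt _ _)
  rw [e, e]
  exact h.cop _ h0

def code : ExcL7 → ℕ
  | .bot => 0
  | .j1 => 1
  | .j2 => 2
  | .k => 3
  | .m1 => 4
  | .m2 => 5
  | .top => 6

theorem code_le (x y : ExcL7) : leqb (code x) (code y) = true ↔ x ≤ y := by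
  show _ ↔ ExcL7.le' x y
  cases x <;> cases y <;> decide

theorem code_lt (x : ExcL7) : code x ≤ 6 := by
  cases x <;> decide

theorem code_surj {t : ℕ} (ht : t ≤ 6) : ∃ x, code x = t := by
  interval_cases t
  · exact ⟨.bot, rfl⟩
  · exact ⟨.j1, rfl⟩
  · exact ⟨.j2, rfl⟩
  · exact ⟨.k, rfl⟩
  · exact ⟨.m1, rfl⟩
  · exact ⟨.m2, rfl⟩
  · exact ⟨.top, rfl⟩

noncomputable def F (x : ExcL7) : alg.Con :=
  ⟨toSetoid (Erel (code x)) (ErelCg _), toSetoid_cong _ _⟩

theorem F_le (x y : ExcL7) : F x ≤ F y ↔ x ≤ y := by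
  constructor
  · intro hle
    rw [← code_le]
    have hr := root_lt (code x)
    have ht := misc.2.2.2.2.1 (code x) (Nat.lt_succ_of_le (code_lt x))
    have h1 : Erel (code x) 0 (rootOf (code x)) :=
      (Eblk _ (code_lt x) _ hr).mpr (by rw [ht]; exact (code_le x x).mpr le_rfl)
    have hle' : toSetoid (Erel (code x)) (ErelCg _) ≤ toSetoid (Erel (code y)) (ErelCg _) := hle
    have h2 : Erel (code y) 0 (rootOf (code x)) :=
      @hle' (⟨0, n_pos⟩ : Fin n) ⟨rootOf (code x), hr⟩ h1
    have := (Eblk _ (code_lt y) _ hr).mp h2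
    rwa [ht] at this
  · intro hxy
    show toSetoid (Erel (code x)) (ErelCg _) ≤ toSetoid (Erel (code y)) (ErelCg _)
    intro a b hab
    have hb : ∀ z, z < n → Erel (code x) 0 z → Erel (code y) 0 z := by
      intro z hz h1
      rw [Eblk _ (code_lt y) _ hz]
      rw [Eblk _ (code_lt x) _ hz] at h1
      obtain ⟨w, hw⟩ := code_surj (factY z hz).2.1
      rw [← hw] at h1 ⊢
      exact (code_le w y).mpr (le_trans ((code_le w x).mp h1) hxy)
    exact mono (ErelCg _) (ErelCg _) hb a.val (reach_all _ a.isLt) b.val b.isLt hab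

theorem F_surj : Function.Surjective F := by
  rintro ⟨r, hr⟩
  have hC := toCg r hr
  obtain ⟨m, hm, hcl⟩ := classify hC
  obtain ⟨x, rfl⟩ := code_surj hm
  refine ⟨x, Subtype.ext ?_⟩
  show toSetoid (Erel (code x)) (ErelCg _) = r
  refine Setoid.ext fun a b => ?_
  show Erel (code x) a.val b.val ↔ r a b
  have hE := ErelCg (code x)
  have h1 : Erel (code x) a.val b.val → r (mk a.val) (mk b.val) :=
    mono hE hC (fun z hz h => (hcl z hz).mpr ((Eblk _ hm z hz).mp h))
      a.val (reach_all _ a.isLt) b.val b.isLt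
  have h2 : r (mk a.val) (mk b.val) → Erel (code x) a.val b.val :=
    mono hC hE (fun z hz h => (Eblk _ hm z hz).mpr ((hcl z hz).mp h))
      a.val (reach_all _ a.isLt) b.val b.isLt
  rw [mk_val, mk_val] at h1 h2
  exact ⟨h1, h2⟩

theorem main : Representable ExcL7 :=
  ⟨alg, ⟨(RelIso.ofSurjective (OrderEmbedding.ofMapLEIff F F_le) F_surj).symm⟩⟩

end Vale.Agent.P183.L7
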